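import Mathlib

/-!
# Gram determinants of pairs of vectors in `EuclideanSpace ℝ (Fin 3)`

Algebraic facts used for the radial sweep lemma (S0328).
-/

set_option autoImplicit false

namespace Crest.Agent.Helper36

/-- Three-dimensional Euclidean space. -/
abbrev E3 := EuclideanSpace ℝ (Fin 3)

/-- Gram determinant of two vectors. -/
noncomputable def gram2 (x y : E3) : ℝ := ‖x‖ ^ 2 * ‖y‖ ^ 2 - inner ℝ x y ^ 2

/-- Orthogonal projection along `d` (onto `d^⊥`), written as in the statement of S0328. -/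
noncomputable def projAlong (d : E3) (y : E3) : E3 := y - (inner ℝ y d / ‖d‖ ^ 2) • d

theorem inner_E3 (x y : E3) : inner ℝ x y = x 0 * y 0 + x 1 * y 1 + x 2 * y 2 := by
  simp [PiLp.inner_apply, Fin.sum_univ_three, mul_comm]

theorem norm_sq_E3 (x : E3) : ‖x‖ ^ 2 = x 0 * x 0 + x 1 * x 1 + x 2 * x 2 := by
  rw [← real_inner_self_eq_norm_sq, inner_E3]

theorem gram2_nonneg (x y : E3) : 0 ≤ gram2 x y := by
  unfold gram2
  have h := abs_real_inner_le_norm x y
  have h2 : inner ℝ x y ^ 2 ≤ (‖x‖ * ‖y‖) ^ 2 := by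
    rw [← sq_abs (inner ℝ x y)]
    exact pow_le_pow_left₀ (abs_nonneg _) h 2
  nlinarith [h2]

theorem gram2_smul_smul (s t : ℝ) (x y : E3) :
    gram2 (s • x) (t • y) = s ^ 2 * t ^ 2 * gram2 x y := by
  unfold gram2
  rw [norm_smul, norm_smul, inner_smul_left, inner_smul_right]
  simp only [Real.norm_eq_abs, mul_pow, sq_abs, conj_trivial]
  ring

/-- Gram determinant of `a + t₁ b`, `a + t₂ b`. -/
theorem gram2_fan (a b : E3) (t₁ t₂ : ℝ) :
    gram2 (a + t₁ • b) (a + t₂ • b) = (t₂ - t₁) ^ 2 * gram2 a b := by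
  unfold gram2
  rw [← real_inner_self_eq_norm_sq, ← real_inner_self_eq_norm_sq, ← real_inner_self_eq_norm_sq,
    ← real_inner_self_eq_norm_sq]
  simp only [inner_add_left, inner_add_right, inner_smul_left, inner_smul_right, conj_trivial]
  rw [real_inner_comm a b]
  ring

/-- Three vectors orthogonal to a unit vector have vanishing Gram determinant. -/
theorem gram3_eq_zero (x y w e : E3) (he : ‖e‖ = 1) (hx : inner ℝ x e = 0)
    (hy : inner ℝ y e = 0) (hw : inner ℝ w e = 0) :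
    ‖w‖ ^ 2 * gram2 x y =
      ‖x‖ ^ 2 * inner ℝ y w ^ 2 + ‖y‖ ^ 2 * inner ℝ x w ^ 2
        - 2 * inner ℝ x y * inner ℝ x w * inner ℝ y w := by
  have he2 : ‖e‖ ^ 2 = 1 := by rw [he]; norm_num
  unfold gram2
  rw [norm_sq_E3] at he2 ⊢
  rw [norm_sq_E3 x, norm_sq_E3 y]
  rw [inner_E3] at hx hy hw ⊢
  rw [inner_E3 x w, inner_E3 y w]
  set x0 := x 0; set x1 := x 1; set x2 := x 2
  set y0 := y 0; set y1 := y 1; set y2 := y 2
  set w0 := w 0; set w1 := w 1; set w2 := w 2
  set e0 := e 0; set e1 := e 1; set e2 := e 2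
  have h0 : (x0 * (y1 * w2 - y2 * w1) - x1 * (y0 * w2 - y2 * w0) + x2 * (y0 * w1 - y1 * w0)) * e0
      = 0 := by
    linear_combination (y1 * w2 - y2 * w1) * hx - (x1 * w2 - x2 * w1) * hy
      + (x1 * y2 - x2 * y1) * hw
  have h1 : (x0 * (y1 * w2 - y2 * w1) - x1 * (y0 * w2 - y2 * w0) + x2 * (y0 * w1 - y1 * w0)) * e1
      = 0 := by
    linear_combination -(y0 * w2 - y2 * w0) * hx + (x0 * w2 - x2 * w0) * hy
      - (x0 * y2 - x2 * y0) * hw
  have h2 : (x0 * (y1 * w2 - y2 * w1) - x1 * (y0 * w2 - y2 * w0) + x2 * (y0 * w1 - y1 * w0)) * e2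
      = 0 := by
    linear_combination (y0 * w1 - y1 * w0) * hx - (x0 * w1 - x1 * w0) * hy
      + (x0 * y1 - x1 * y0) * hw
  have hdet : x0 * (y1 * w2 - y2 * w1) - x1 * (y0 * w2 - y2 * w0) + x2 * (y0 * w1 - y1 * w0)
      = 0 := by
    linear_combination e0 * h0 + e1 * h1 + e2 * h2
      - (x0 * (y1 * w2 - y2 * w1) - x1 * (y0 * w2 - y2 * w0) + x2 * (y0 * w1 - y1 * w0)) * he2
  linear_combination
    (x0 * (y1 * w2 - y2 * w1) - x1 * (y0 * w2 - y2 * w0) + x2 * (y0 * w1 - y1 * w0)) * hdet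

theorem norm_sq_e_add (e w : E3) (he : ‖e‖ = 1) (hw : inner ℝ w e = 0) :
    ‖e + w‖ ^ 2 = 1 + ‖w‖ ^ 2 := by
  rw [← real_inner_self_eq_norm_sq, inner_add_left, inner_add_right, inner_add_right,
    real_inner_self_eq_norm_sq, real_inner_self_eq_norm_sq, he, hw, real_inner_comm, hw]
  ring

theorem inner_projAlong_self (d y : E3) (hd : ‖d‖ ^ 2 ≠ 0) : inner ℝ (projAlong d y) d = 0 := by
  unfold projAlong
  rw [inner_sub_left, inner_smul_left, real_inner_self_eq_norm_sq]
  simp only [conj_trivial]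
  rw [div_mul_cancel₀ _ hd, sub_self]

theorem projAlong_add (d x y : E3) : projAlong d (x + y) = projAlong d x + projAlong d y := by
  unfold projAlong
  rw [inner_add_left, add_div, add_smul]
  abel

theorem projAlong_sub (d x y : E3) : projAlong d (x - y) = projAlong d x - projAlong d y := by
  unfold projAlong
  rw [inner_sub_left, sub_div, sub_smul]
  abel

theorem projAlong_smul (d : E3) (s : ℝ) (x : E3) : projAlong d (s • x) = s • projAlong d x := by
  unfold projAlong
  rw [inner_smul_left, smul_sub, smul_smul]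
  simp only [conj_trivial]
  congr 2
  ring

theorem projAlong_self_smul (d : E3) (hd : ‖d‖ ^ 2 ≠ 0) (s : ℝ) : projAlong d (s • d) = 0 := by
  unfold projAlong
  rw [inner_smul_left, real_inner_self_eq_norm_sq]
  simp only [conj_trivial]
  rw [mul_div_assoc, div_self hd, mul_one, sub_self]

/-- `projAlong d` as a linear map. -/
noncomputable def projAlongL (d : E3) : E3 →ₗ[ℝ] E3 where
  toFun := projAlong d
  map_add' := projAlong_add d
  map_smul' := by intro s x; simpa using projAlong_smul d s x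

@[simp] theorem projAlongL_apply (d y : E3) : projAlongL d y = projAlong d y := rfl

/-- Projecting two vectors of `e^⊥` along `e + w` (`w ⊥ e`) divides the Gram determinant
by `1 + ‖w‖²`. -/
theorem gram2_projAlong (x y w e : E3) (he : ‖e‖ = 1) (hx : inner ℝ x e = 0)
    (hy : inner ℝ y e = 0) (hw : inner ℝ w e = 0) :
    gram2 (projAlong (e + w) x) (projAlong (e + w) y) = gram2 x y / (1 + ‖w‖ ^ 2) := by
  have hD : ‖e + w‖ ^ 2 = 1 + ‖w‖ ^ 2 := norm_sq_e_add e w he hw
  have hDpos : 0 < 1 + ‖w‖ ^ 2 := by positivity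
  have hxd : inner ℝ x (e + w) = inner ℝ x w := by rw [inner_add_right, hx, zero_add]
  have hyd : inner ℝ y (e + w) = inner ℝ y w := by rw [inner_add_right, hy, zero_add]
  have key := gram3_eq_zero x y w e he hx hy hw
  have hdd : inner ℝ (e + w) (e + w) = 1 + ‖w‖ ^ 2 := by
    rw [real_inner_self_eq_norm_sq, hD]
  have hdx : inner ℝ (e + w) x = inner ℝ x w := by rw [real_inner_comm, hxd]
  have hdy : inner ℝ (e + w) y = inner ℝ y w := by rw [real_inner_comm, hyd]
  have hi : (1 + ‖w‖ ^ 2) * (1 + ‖w‖ ^ 2)⁻¹ = 1 := mul_inv_cancel₀ hDpos.ne'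
  unfold gram2 at key ⊢
  unfold projAlong
  rw [← real_inner_self_eq_norm_sq (x - _), ← real_inner_self_eq_norm_sq (y - _)]
  simp only [inner_sub_left, inner_sub_right, inner_smul_left, inner_smul_right, conj_trivial,
    hxd, hyd, hD, hdd, hdx, hdy, real_inner_self_eq_norm_sq, div_eq_mul_inv]
  linear_combination (1 + ‖w‖ ^ 2)⁻¹ * key - (‖x‖ ^ 2 * ‖y‖ ^ 2 - inner ℝ x y ^ 2) * hi
    + (‖x‖ ^ 2 * inner ℝ y w ^ 2 + ‖y‖ ^ 2 * inner ℝ x w ^ 2
        - 2 * inner ℝ x y * inner ℝ x w * inner ℝ y w) * (1 + ‖w‖ ^ 2)⁻¹ * hi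

/-- Positive Gram determinant implies affine independence of the triangle. -/
theorem affineIndependent_of_gram2_pos (p q r : E3) (h : 0 < gram2 (q - p) (r - p)) :
    AffineIndependent ℝ ![p, q, r] := by
  rw [affineIndependent_iff_not_collinear_set]
  intro hcol
  rw [collinear_iff_of_mem (p₀ := p) (by simp)] at hcol
  obtain ⟨v, hv⟩ := hcol
  obtain ⟨r₁, hr₁⟩ := hv q (by simp)
  obtain ⟨r₂, hr₂⟩ := hv r (by simp)
  have e1 : q - p = r₁ • v := by rw [hr₁]; simp
  have e2 : r - p = r₂ • v := by rw [hr₂]; simp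
  rw [e1, e2, gram2_smul_smul] at h
  have : gram2 v v = 0 := by
    unfold gram2
    rw [real_inner_self_eq_norm_sq]; ring
  rw [this] at h
  simp at h

/-- Linear independence implies positive Gram determinant. -/
theorem gram2_pos_of_linearIndependent (a b : E3) (hab : LinearIndependent ℝ ![a, b]) :
    0 < gram2 a b := by
  have ha : a ≠ 0 := by
    have := hab.ne_zero 0
    simpa using this
  have hb : b ≠ 0 := by
    have := hab.ne_zero 1
    simpa using this
  have hne : ¬ ∃ r : ℝ, r ≠ 0 ∧ b = r • a := by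
    rintro ⟨r, -, hr⟩
    rw [LinearIndependent.pair_iff] at hab
    have := hab r (-1) (by rw [hr]; simp)
    simp at this
  have hlt : |inner ℝ a b| < ‖a‖ * ‖b‖ := by
    rcases lt_or_eq_of_le (abs_real_inner_le_norm a b) with h | h
    · exact h
    · exfalso
      apply hne
      have := (abs_real_inner_div_norm_mul_norm_eq_one_iff a b).1 (by
        rw [abs_div, h, abs_of_pos (mul_pos (norm_pos_iff.2 ha) (norm_pos_iff.2 hb))]
        exact div_self (mul_pos (norm_pos_iff.2 ha) (norm_pos_iff.2 hb)).ne')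
      exact this.2
  unfold gram2
  have h2 : inner ℝ a b ^ 2 < (‖a‖ * ‖b‖) ^ 2 := by
    rw [← sq_abs (inner ℝ a b)]
    exact pow_lt_pow_left₀ hlt (abs_nonneg _) (by norm_num)
  nlinarith [h2]

end Crest.Agent.Helper36
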