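import Mathlib
import Crest.Agent.Helper36.Sweep.Gram

/-!
# One piece of a radial sweep: containment in a triangular cylinder
-/

set_option autoImplicit false

open MeasureTheory

namespace Crest.Agent.Helper36

theorem mem_convexHull_three {P Q R : E3} {μ₀ μ₁ μ₂ : ℝ} (h0 : 0 ≤ μ₀) (h1 : 0 ≤ μ₁)
    (h2 : 0 ≤ μ₂) (hs : μ₀ + μ₁ + μ₂ = 1) :
    μ₀ • P + μ₁ • Q + μ₂ • R ∈ convexHull ℝ ({P, Q, R} : Set E3) := by
  have hc := convex_convexHull ℝ ({P, Q, R} : Set E3)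
  have h := hc.sum_mem (t := (Finset.univ : Finset (Fin 3))) (w := ![μ₀, μ₁, μ₂])
    (z := ![P, Q, R]) (by
      intro i _
      fin_cases i <;> simp [h0, h1, h2]) (by
      simp [Fin.sum_univ_three, hs]) (by
      intro i _
      apply subset_convexHull
      fin_cases i <;> simp)
  simpa [Fin.sum_univ_three] using h

/-- The closed fan triangle `{P + σ₁ u₁ + σ₂ u₂ : σ ≥ 0, σ₁ + σ₂ ≤ K}` contains the convex hull
of its three vertices. -/
theorem convexHull_fan_subset (P u₁ u₂ : E3) (K : ℝ) (hK : 0 ≤ K) :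
    convexHull ℝ ({P, P + K • u₁, P + K • u₂} : Set E3) ⊆
      {y | ∃ σ₁ σ₂ : ℝ, 0 ≤ σ₁ ∧ 0 ≤ σ₂ ∧ σ₁ + σ₂ ≤ K ∧ y = P + σ₁ • u₁ + σ₂ • u₂} := by
  apply convexHull_min
  · intro y hy
    simp only [Set.mem_insert_iff, Set.mem_singleton_iff] at hy
    rcases hy with rfl | rfl | rfl
    · exact ⟨0, 0, le_rfl, le_rfl, by simpa using hK, by simp⟩
    · exact ⟨K, 0, hK, le_rfl, by simp, by simp⟩
    · exact ⟨0, K, le_rfl, hK, by simp, by simp⟩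
  · intro y hy z hz s t hs ht hst
    obtain ⟨σ₁, σ₂, h1, h2, h3, rfl⟩ := hy
    obtain ⟨τ₁, τ₂, k1, k2, k3, rfl⟩ := hz
    refine ⟨s * σ₁ + t * τ₁, s * σ₂ + t * τ₂, by positivity, by positivity, ?_, ?_⟩
    · have : s * σ₁ + t * τ₁ + (s * σ₂ + t * τ₂) = s * (σ₁ + σ₂) + t * (τ₁ + τ₂) := by ring
      rw [this]
      calc s * (σ₁ + σ₂) + t * (τ₁ + τ₂) ≤ s * K + t * K := by
            gcongr
        _ = K := by rw [← add_mul, hst, one_mul]
    · have hP : P = (s + t) • P := by rw [hst, one_smul]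
      conv_rhs => rw [hP]
      simp only [smul_add, add_smul, smul_smul]
      abel

/-- The fan triangle is contained in the convex hull of its vertices (`K > 0`). -/
theorem fan_subset_convexHull (P u₁ u₂ : E3) (K : ℝ) (hK : 0 < K) {σ₁ σ₂ : ℝ} (h1 : 0 ≤ σ₁)
    (h2 : 0 ≤ σ₂) (h3 : σ₁ + σ₂ ≤ K) :
    P + σ₁ • u₁ + σ₂ • u₂ ∈ convexHull ℝ ({P, P + K • u₁, P + K • u₂} : Set E3) := by
  have h := mem_convexHull_three (P := P) (Q := P + K • u₁) (R := P + K • u₂)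
    (μ₀ := 1 - σ₁ / K - σ₂ / K) (μ₁ := σ₁ / K) (μ₂ := σ₂ / K) (by
      have : σ₁ / K + σ₂ / K ≤ 1 := by
        rw [← add_div, div_le_one hK]; exact h3
      linarith) (by positivity) (by positivity) (by ring)
  have e : (1 - σ₁ / K - σ₂ / K) • P + (σ₁ / K) • (P + K • u₁) + (σ₂ / K) • (P + K • u₂)
      = P + σ₁ • u₁ + σ₂ • u₂ := by
    simp only [smul_add, smul_smul, sub_smul, one_smul]
    rw [div_mul_cancel₀ _ hK.ne', div_mul_cancel₀ _ hK.ne']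
    abel
  rw [e] at h
  exact h

section Sweep

variable (a b : E3) (α β : ℝ) (w : ℝ → E3) (lam : ℝ → ℝ)

/-- Fundamental theorem of calculus for the direction field. -/
theorem w_sub_eq (hlam : ContinuousOn lam (Set.Icc α β))
    (hw' : ∀ t ∈ Set.Icc α β, HasDerivWithinAt w (lam t • (a + t • b)) (Set.Icc α β) t)
    {c τ : ℝ} (hc : c ∈ Set.Icc α β) (hτ : τ ∈ Set.Icc α β) :
    w τ - w c = (∫ θ in c..τ, lam θ) • a + (∫ θ in c..τ, lam θ * θ) • b := by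
  have hsub : Set.uIcc c τ ⊆ Set.Icc α β := Set.uIcc_subset_Icc hc hτ
  have hcont : ContinuousOn w (Set.uIcc c τ) := fun x hx =>
    ((hw' x (hsub hx)).continuousWithinAt).mono hsub
  have hderiv : ∀ x ∈ Set.Ioo (min c τ) (max c τ),
      HasDerivWithinAt w (lam x • (a + x • b)) (Set.Ioi x) x := by
    intro x hx
    have hx' : x ∈ Set.Icc α β := hsub ⟨hx.1.le, hx.2.le⟩
    have hxβ : x < β := lt_of_lt_of_le hx.2 (max_le hc.2 hτ.2)
    exact (hw' x hx').mono_of_mem_nhdsWithin (Icc_mem_nhdsGT_of_mem ⟨hx'.1, hxβ⟩)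
  have hlamc : ContinuousOn lam (Set.uIcc c τ) := hlam.mono hsub
  have hint0 : IntervalIntegrable lam volume c τ := hlamc.intervalIntegrable
  have hint1 : IntervalIntegrable (fun θ => lam θ * θ) volume c τ :=
    (hlamc.mul continuousOn_id).intervalIntegrable
  have hint : IntervalIntegrable (fun x => lam x • (a + x • b)) volume c τ := by
    apply ContinuousOn.intervalIntegrable
    exact hlamc.smul (continuousOn_const.add (continuousOn_id.smul continuousOn_const))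
  have h := intervalIntegral.integral_eq_sub_of_hasDeriv_right hcont hderiv hint
  rw [← h]
  have e1 : (fun x => lam x • (a + x • b)) = fun x => lam x • a + (lam x * x) • b := by
    funext x
    rw [smul_add, smul_smul]
  have hia : IntervalIntegrable (fun x => lam x • a) volume c τ :=
    (hlamc.smul continuousOn_const).intervalIntegrable
  have hib : IntervalIntegrable (fun x => (lam x * x) • b) volume c τ :=
    ((hlamc.mul continuousOn_id).smul continuousOn_const).intervalIntegrable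
  rw [e1, intervalIntegral.integral_add hia hib,
    intervalIntegral.integral_smul_const, intervalIntegral.integral_smul_const]

/-- Coordinates of `w τ - w c` in the frame `u(t₁), u(t₂)` of a piece are `O(Λ Δ)`. -/
theorem w_sub_coeff (hlam : ContinuousOn lam (Set.Icc α β))
    (hw' : ∀ t ∈ Set.Icc α β, HasDerivWithinAt w (lam t • (a + t • b)) (Set.Icc α β) t)
    {t₁ t₂ : ℝ} (ht : t₁ < t₂) (h1 : α ≤ t₁) (h2 : t₂ ≤ β) {Λ : ℝ}
    (hΛ : ∀ θ ∈ Set.Icc α β, |lam θ| ≤ Λ) {c τ : ℝ} (hc : c ∈ Set.Icc t₁ t₂)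
    (hτ : τ ∈ Set.Icc t₁ t₂) :
    ∃ A₁ A₂ : ℝ, |A₁| ≤ Λ * (t₂ - t₁) ∧ |A₂| ≤ Λ * (t₂ - t₁) ∧
      w τ - w c = A₁ • (a + t₁ • b) + A₂ • (a + t₂ • b) := by
  have hΔ : 0 < t₂ - t₁ := sub_pos.2 ht
  have hsub12 : Set.Icc t₁ t₂ ⊆ Set.Icc α β := Set.Icc_subset_Icc h1 h2
  have hc' := hsub12 hc
  have hτ' := hsub12 hτ
  have hΛ0 : 0 ≤ Λ := le_trans (abs_nonneg _) (hΛ c hc')
  have hsub : Set.uIcc c τ ⊆ Set.Icc α β := Set.uIcc_subset_Icc hc' hτ'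
  have hsubt : Set.uIcc c τ ⊆ Set.Icc t₁ t₂ := Set.uIcc_subset_Icc hc hτ
  have hlamc : ContinuousOn lam (Set.uIcc c τ) := hlam.mono hsub
  have hint0 : IntervalIntegrable lam volume c τ := hlamc.intervalIntegrable
  have hint1 : IntervalIntegrable (fun θ => lam θ * θ) volume c τ :=
    (hlamc.mul continuousOn_id).intervalIntegrable
  set I₀ := ∫ θ in c..τ, lam θ with hI₀
  set I₁ := ∫ θ in c..τ, lam θ * θ with hI₁
  have hw := w_sub_eq a b α β w lam hlam hw' hc' hτ'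
  rw [← hI₀, ← hI₁] at hw
  have hdist : |τ - c| ≤ t₂ - t₁ := by
    rw [abs_le]
    constructor <;> linarith [hc.1, hc.2, hτ.1, hτ.2]
  -- first coefficient
  have hb1 : |t₂ * I₀ - I₁| ≤ Λ * (t₂ - t₁) * (t₂ - t₁) := by
    have e : t₂ * I₀ - I₁ = ∫ θ in c..τ, lam θ * (t₂ - θ) := by
      have : (fun θ => lam θ * (t₂ - θ)) = fun θ => t₂ * lam θ - lam θ * θ := by
        funext θ; ring
      rw [this, intervalIntegral.integral_sub (hint0.const_mul t₂) hint1,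
        intervalIntegral.integral_const_mul]
    rw [e]
    have hbound := intervalIntegral.norm_integral_le_of_norm_le_const
      (a := c) (b := τ) (C := Λ * (t₂ - t₁)) (f := fun θ => lam θ * (t₂ - θ)) (by
        intro θ hθ
        have hθ' : θ ∈ Set.Icc t₁ t₂ := hsubt (Set.uIoc_subset_uIcc hθ)
        rw [Real.norm_eq_abs, abs_mul]
        have hA := hΛ θ (hsub12 hθ')
        have hB : |t₂ - θ| ≤ t₂ - t₁ := by
          rw [abs_le]; constructor <;> linarith [hθ'.1, hθ'.2]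
        exact mul_le_mul hA hB (abs_nonneg _) hΛ0)
    rw [Real.norm_eq_abs] at hbound
    calc |∫ θ in c..τ, lam θ * (t₂ - θ)| ≤ Λ * (t₂ - t₁) * |τ - c| := hbound
      _ ≤ Λ * (t₂ - t₁) * (t₂ - t₁) := by
          apply mul_le_mul_of_nonneg_left hdist
          positivity
  have hb2 : |I₁ - t₁ * I₀| ≤ Λ * (t₂ - t₁) * (t₂ - t₁) := by
    have e : I₁ - t₁ * I₀ = ∫ θ in c..τ, lam θ * (θ - t₁) := by
      have : (fun θ => lam θ * (θ - t₁)) = fun θ => lam θ * θ - t₁ * lam θ := by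
        funext θ; ring
      rw [this, intervalIntegral.integral_sub hint1 (hint0.const_mul t₁),
        intervalIntegral.integral_const_mul]
    rw [e]
    have hbound := intervalIntegral.norm_integral_le_of_norm_le_const
      (a := c) (b := τ) (C := Λ * (t₂ - t₁)) (f := fun θ => lam θ * (θ - t₁)) (by
        intro θ hθ
        have hθ' : θ ∈ Set.Icc t₁ t₂ := hsubt (Set.uIoc_subset_uIcc hθ)
        rw [Real.norm_eq_abs, abs_mul]
        have hA := hΛ θ (hsub12 hθ')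
        have hB : |θ - t₁| ≤ t₂ - t₁ := by
          rw [abs_le]; constructor <;> linarith [hθ'.1, hθ'.2]
        exact mul_le_mul hA hB (abs_nonneg _) hΛ0)
    rw [Real.norm_eq_abs] at hbound
    calc |∫ θ in c..τ, lam θ * (θ - t₁)| ≤ Λ * (t₂ - t₁) * |τ - c| := hbound
      _ ≤ Λ * (t₂ - t₁) * (t₂ - t₁) := by
          apply mul_le_mul_of_nonneg_left hdist
          positivity
  refine ⟨(t₂ * I₀ - I₁) / (t₂ - t₁), (I₁ - t₁ * I₀) / (t₂ - t₁), ?_, ?_, ?_⟩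
  · rw [abs_div, abs_of_pos hΔ, div_le_iff₀ hΔ]
    exact hb1
  · rw [abs_div, abs_of_pos hΔ, div_le_iff₀ hΔ]
    exact hb2
  · rw [hw]
    have e0 : (t₂ * I₀ - I₁) / (t₂ - t₁) + (I₁ - t₁ * I₀) / (t₂ - t₁) = I₀ := by
      field_simp
      ring
    have e1 : (t₂ * I₀ - I₁) / (t₂ - t₁) * t₁ + (I₁ - t₁ * I₀) / (t₂ - t₁) * t₂ = I₁ := by
      field_simp
      ring
    have e2 : ((t₂ * I₀ - I₁) / (t₂ - t₁)) • (a + t₁ • b)
        + ((I₁ - t₁ * I₀) / (t₂ - t₁)) • (a + t₂ • b)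
        = ((t₂ * I₀ - I₁) / (t₂ - t₁) + (I₁ - t₁ * I₀) / (t₂ - t₁)) • a
          + ((t₂ * I₀ - I₁) / (t₂ - t₁) * t₁ + (I₁ - t₁ * I₀) / (t₂ - t₁) * t₂) • b := by
      simp only [smul_add, smul_smul, add_smul]
      abel
    rw [e2, e0, e1]

end Sweep

/-- A piece of the radial sweep. -/
def sweepPiece (e a b p₀ : E3) (L : ℝ) (R : ℝ → ℝ) (w : ℝ → E3) (t₁ t₂ : ℝ) : Set E3 :=
  {x | ∃ τ ∈ Set.Icc t₁ t₂, ∃ ρ ∈ Set.Icc 0 (R τ), ∃ s : ℝ, |s| ≤ L ∧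
    x = p₀ + ρ • (a + τ • b) + s • (e + w τ)}

/-- Every point of a piece is, up to a multiple of the tagged axis `e + w c`, a point of an
explicit planar triangle. -/
theorem piece_decomp (e a b p₀ : E3) (α β : ℝ) (w : ℝ → E3) (lam : ℝ → ℝ)
    (hlam : ContinuousOn lam (Set.Icc α β))
    (hw' : ∀ t ∈ Set.Icc α β, HasDerivWithinAt w (lam t • (a + t • b)) (Set.Icc α β) t)
    {t₁ t₂ : ℝ} (ht : t₁ < t₂) (h1 : α ≤ t₁) (h2 : t₂ ≤ β) {Λ L : ℝ} (hL : 0 ≤ L)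
    (hΛ : ∀ θ ∈ Set.Icc α β, |lam θ| ≤ Λ) (R : ℝ → ℝ) {Rmax ν : ℝ} (hν : 0 < ν)
    (hRmax : ∀ τ ∈ Set.Icc t₁ t₂, R τ ≤ Rmax) {c : ℝ} (hc : c ∈ Set.Icc t₁ t₂)
    {x : E3} (hx : x ∈ sweepPiece e a b p₀ L R w t₁ t₂) :
    ∃ y ∈ convexHull ℝ ({p₀ - (L * Λ * (t₂ - t₁)) • ((a + t₁ • b) + (a + t₂ • b)),
        p₀ - (L * Λ * (t₂ - t₁)) • ((a + t₁ • b) + (a + t₂ • b))
          + (Rmax + 4 * (L * Λ * (t₂ - t₁)) + ν) • (a + t₁ • b),
        p₀ - (L * Λ * (t₂ - t₁)) • ((a + t₁ • b) + (a + t₂ • b))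
          + (Rmax + 4 * (L * Λ * (t₂ - t₁)) + ν) • (a + t₂ • b)} : Set E3),
      ∃ s : ℝ, x = y + s • (e + w c) := by
  obtain ⟨τ, hτ, ρ, hρ, s, hs, rfl⟩ := hx
  have hΔ : 0 < t₂ - t₁ := sub_pos.2 ht
  have hsub12 : Set.Icc t₁ t₂ ⊆ Set.Icc α β := Set.Icc_subset_Icc h1 h2
  have hΛ0 : 0 ≤ Λ := le_trans (abs_nonneg _) (hΛ c (hsub12 hc))
  obtain ⟨A₁, A₂, hA₁, hA₂, hA⟩ := w_sub_coeff a b α β w lam hlam hw' ht h1 h2 hΛ hc hτ
  set m := L * Λ * (t₂ - t₁) with hm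
  have hm0 : 0 ≤ m := by positivity
  set θ₁ := (t₂ - τ) / (t₂ - t₁) with hθ₁
  set θ₂ := (τ - t₁) / (t₂ - t₁) with hθ₂
  have hθ₁0 : 0 ≤ θ₁ := div_nonneg (sub_nonneg.2 hτ.2) hΔ.le
  have hθ₂0 : 0 ≤ θ₂ := div_nonneg (sub_nonneg.2 hτ.1) hΔ.le
  have hθs : θ₁ + θ₂ = 1 := by
    rw [hθ₁, hθ₂]; field_simp; ring
  have hθt : θ₁ * t₁ + θ₂ * t₂ = τ := by
    rw [hθ₁, hθ₂]; field_simp; ring
  have hu : a + τ • b = θ₁ • (a + t₁ • b) + θ₂ • (a + t₂ • b) := by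
    have : θ₁ • (a + t₁ • b) + θ₂ • (a + t₂ • b)
        = (θ₁ + θ₂) • a + (θ₁ * t₁ + θ₂ * t₂) • b := by module
    rw [this, hθs, hθt, one_smul]
  have hwτ : w τ = w c + (A₁ • (a + t₁ • b) + A₂ • (a + t₂ • b)) := by
    rw [← hA]; abel
  have hsA₁ : |s * A₁| ≤ m := by
    rw [abs_mul, hm, mul_assoc]
    exact mul_le_mul hs hA₁ (abs_nonneg _) hL
  have hsA₂ : |s * A₂| ≤ m := by
    rw [abs_mul, hm, mul_assoc]
    exact mul_le_mul hs hA₂ (abs_nonneg _) hL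
  have hρR : ρ ≤ Rmax := le_trans hρ.2 (hRmax τ hτ)
  have hρ0 : 0 ≤ ρ := hρ.1
  have hK : 0 < Rmax + 4 * m + ν := by linarith
  have hσ₁ : 0 ≤ ρ * θ₁ + s * A₁ + m := by
    have := (abs_le.1 hsA₁).1
    have : 0 ≤ ρ * θ₁ := mul_nonneg hρ0 hθ₁0
    linarith
  have hσ₂ : 0 ≤ ρ * θ₂ + s * A₂ + m := by
    have := (abs_le.1 hsA₂).1
    have : 0 ≤ ρ * θ₂ := mul_nonneg hρ0 hθ₂0
    linarith
  have hσs : (ρ * θ₁ + s * A₁ + m) + (ρ * θ₂ + s * A₂ + m) ≤ Rmax + 4 * m + ν := by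
    have e1 : ρ * θ₁ + ρ * θ₂ = ρ := by rw [← mul_add, hθs, mul_one]
    have := (abs_le.1 hsA₁).2
    have := (abs_le.1 hsA₂).2
    linarith
  refine ⟨_, fan_subset_convexHull (p₀ - m • ((a + t₁ • b) + (a + t₂ • b))) (a + t₁ • b)
    (a + t₂ • b) (Rmax + 4 * m + ν) hK hσ₁ hσ₂ hσs, s, ?_⟩
  rw [hu, hwτ]
  module

/-- The triangle with radius `r ≤ R` over a piece is contained in the piece. -/
theorem inner_triangle_subset (e a b p₀ : E3) (w : ℝ → E3) (R : ℝ → ℝ) {t₁ t₂ : ℝ}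
    (ht : t₁ < t₂) {r L : ℝ} (hr : 0 ≤ r) (hL : 0 ≤ L) (hrR : ∀ τ ∈ Set.Icc t₁ t₂, r ≤ R τ) :
    convexHull ℝ ({p₀, p₀ + r • (a + t₁ • b), p₀ + r • (a + t₂ • b)} : Set E3) ⊆
      sweepPiece e a b p₀ L R w t₁ t₂ := by
  intro y hy
  obtain ⟨σ₁, σ₂, h1, h2, h3, rfl⟩ := convexHull_fan_subset p₀ (a + t₁ • b) (a + t₂ • b) r hr hy
  rcases eq_or_lt_of_le (add_nonneg h1 h2) with h0 | hpos
  · have e1 : σ₁ = 0 := by linarith
    have e2 : σ₂ = 0 := by linarith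
    refine ⟨t₁, ⟨le_rfl, ht.le⟩, 0, ⟨le_rfl, le_trans hr (hrR t₁ ⟨le_rfl, ht.le⟩)⟩, 0, ?_, ?_⟩
    · simpa using hL
    · rw [e1, e2]; simp
  · set ρ := σ₁ + σ₂ with hρ
    set τ := (σ₁ * t₁ + σ₂ * t₂) / ρ with hτ
    have hτmem : τ ∈ Set.Icc t₁ t₂ := by
      constructor
      · rw [hτ, le_div_iff₀ hpos, hρ]
        nlinarith [mul_nonneg h2 (sub_nonneg.2 ht.le)]
      · rw [hτ, div_le_iff₀ hpos, hρ]
        nlinarith [mul_nonneg h1 (sub_nonneg.2 ht.le)]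
    refine ⟨τ, hτmem, ρ, ⟨hpos.le, le_trans h3 (hrR τ hτmem)⟩, 0, ?_, ?_⟩
    · simpa using hL
    · have hρτ : ρ * τ = σ₁ * t₁ + σ₂ * t₂ := by
        rw [hτ, mul_div_cancel₀ _ hpos.ne']
      have : ρ • (a + τ • b) = σ₁ • (a + t₁ • b) + σ₂ • (a + t₂ • b) := by
        have e1 : ρ • (a + τ • b) = ρ • a + (ρ * τ) • b := by module
        rw [e1, hρτ, hρ]
        module
      rw [this]
      module

/-- Area (Gram form) of the projection along `e + w` of a fan triangle in `e^⊥`. -/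
theorem sqrt_gram2_proj_fan (e a b w P : E3) (he : ‖e‖ = 1) (ha : inner ℝ a e = 0)
    (hb : inner ℝ b e = 0) (hw : inner ℝ w e = 0) (t₁ t₂ K : ℝ) (ht : t₁ ≤ t₂) :
    Real.sqrt (gram2 (projAlong (e + w) (P + K • (a + t₁ • b)) - projAlong (e + w) P)
        (projAlong (e + w) (P + K • (a + t₂ • b)) - projAlong (e + w) P)) / 2
      = K ^ 2 * (1 / (2 * Real.sqrt (1 + ‖w‖ ^ 2))) * Real.sqrt (gram2 a b) * (t₂ - t₁) := by
  have hu₁ : inner ℝ (a + t₁ • b) e = 0 := by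
    rw [inner_add_left, inner_smul_left, ha, hb]; simp
  have hu₂ : inner ℝ (a + t₂ • b) e = 0 := by
    rw [inner_add_left, inner_smul_left, ha, hb]; simp
  have e1 : projAlong (e + w) (P + K • (a + t₁ • b)) - projAlong (e + w) P
      = K • projAlong (e + w) (a + t₁ • b) := by
    rw [projAlong_add, projAlong_smul]; abel
  have e2 : projAlong (e + w) (P + K • (a + t₂ • b)) - projAlong (e + w) P
      = K • projAlong (e + w) (a + t₂ • b) := by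
    rw [projAlong_add, projAlong_smul]; abel
  rw [e1, e2, gram2_smul_smul, gram2_projAlong _ _ w e he hu₁ hu₂ hw, gram2_fan]
  have hD : 0 < 1 + ‖w‖ ^ 2 := by positivity
  have hG := gram2_nonneg a b
  have e3 : K ^ 2 * K ^ 2 * ((t₂ - t₁) ^ 2 * gram2 a b / (1 + ‖w‖ ^ 2))
      = (K ^ 2 * (t₂ - t₁)) ^ 2 * (gram2 a b / (1 + ‖w‖ ^ 2)) := by ring
  rw [e3, Real.sqrt_mul (sq_nonneg _), Real.sqrt_sq (mul_nonneg (sq_nonneg _) (sub_nonneg.2 ht)),
    Real.sqrt_div hG]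
  have hs : 0 < Real.sqrt (1 + ‖w‖ ^ 2) := Real.sqrt_pos.2 hD
  field_simp

end Crest.Agent.Helper36
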