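import Mathlib

/-!
# Riemann sums over a partition indexed by `Fin (N + 1)`
-/

set_option autoImplicit false

open MeasureTheory

namespace Crest.Agent.Helper36

theorem sum_fin_integral_adjacent {N : ℕ} (t : Fin (N + 1) → ℝ) (f : ℝ → ℝ)
    (hf : ∀ i : Fin N, IntervalIntegrable f volume (t i.castSucc) (t i.succ)) :
    ∑ i : Fin N, ∫ x in (t i.castSucc)..(t i.succ), f x
      = ∫ x in (t 0)..(t (Fin.last N)), f x := by
  let a : ℕ → ℝ := fun k => t ⟨min k N, by omega⟩
  have ha1 : ∀ i : Fin N, a (i : ℕ) = t i.castSucc := by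
    intro i
    show t ⟨min (i : ℕ) N, _⟩ = t i.castSucc
    congr 1
    apply Fin.ext
    simp [i.2.le]
  have ha2 : ∀ i : Fin N, a ((i : ℕ) + 1) = t i.succ := by
    intro i
    show t ⟨min ((i : ℕ) + 1) N, _⟩ = t i.succ
    congr 1
    apply Fin.ext
    have := i.2
    simp
  have h := intervalIntegral.sum_integral_adjacent_intervals (μ := volume) (f := f) (a := a)
    (n := N) (by
      intro k hk
      have h1 := hf ⟨k, hk⟩
      rw [← ha1 ⟨k, hk⟩, ← ha2 ⟨k, hk⟩] at h1
      exact h1)
  rw [Finset.sum_range (fun k => ∫ x in a k..a (k + 1), f x)] at h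
  have e0 : a 0 = t 0 := by
    show t ⟨min 0 N, _⟩ = t 0
    congr 1
  have eN : a N = t (Fin.last N) := by
    show t ⟨min N N, _⟩ = t (Fin.last N)
    congr 1
    apply Fin.ext
    simp
  rw [e0, eN] at h
  rw [← h]
  apply Finset.sum_congr rfl
  intro i _
  rw [ha1 i, ha2 i]

theorem sum_fin_sub_adjacent {N : ℕ} (t : Fin (N + 1) → ℝ) :
    ∑ i : Fin N, (t i.succ - t i.castSucc) = t (Fin.last N) - t 0 := by
  have h := sum_fin_integral_adjacent t (fun _ => (1 : ℝ)) (fun i => intervalIntegrable_const)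
  simpa using h

/-- A Riemann-type sum whose values are uniformly `ε`-close to `F` on each piece is
`ε (β - α)`-close to the integral. -/
theorem riemann_sum_close {N : ℕ} (t : Fin (N + 1) → ℝ) (ht : Monotone t) (F : ℝ → ℝ)
    (hF : ContinuousOn F (Set.Icc (t 0) (t (Fin.last N))))
    (v : Fin N → ℝ) (ε : ℝ)
    (hv : ∀ i : Fin N, ∀ τ ∈ Set.Icc (t i.castSucc) (t i.succ), |v i - F τ| ≤ ε) :
    |∑ i : Fin N, v i * (t i.succ - t i.castSucc) - ∫ τ in (t 0)..(t (Fin.last N)), F τ|
      ≤ ε * (t (Fin.last N) - t 0) := by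
  have hle : ∀ i : Fin N, t i.castSucc ≤ t i.succ := fun i =>
    ht (Fin.castSucc_lt_succ (i := i)).le
  have hmem : ∀ i : Fin (N + 1), t i ∈ Set.Icc (t 0) (t (Fin.last N)) := fun i =>
    ⟨ht (Fin.zero_le i), ht (Fin.le_last i)⟩
  have hint : ∀ i : Fin N, IntervalIntegrable F volume (t i.castSucc) (t i.succ) := by
    intro i
    apply ContinuousOn.intervalIntegrable
    apply hF.mono
    rw [Set.uIcc_of_le (hle i)]
    exact Set.Icc_subset_Icc (hmem _).1 (hmem _).2
  rw [← sum_fin_integral_adjacent t F hint, ← Finset.sum_sub_distrib]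
  have hterm : ∀ i : Fin N,
      |v i * (t i.succ - t i.castSucc) - ∫ x in (t i.castSucc)..(t i.succ), F x|
        ≤ ε * (t i.succ - t i.castSucc) := by
    intro i
    have h1 : v i * (t i.succ - t i.castSucc) - ∫ x in (t i.castSucc)..(t i.succ), F x
        = ∫ x in (t i.castSucc)..(t i.succ), (v i - F x) := by
      rw [intervalIntegral.integral_sub intervalIntegrable_const (hint i)]
      simp [mul_comm]
    rw [h1]
    have h2 := intervalIntegral.norm_integral_le_of_norm_le_const
      (a := t i.castSucc) (b := t i.succ) (C := ε) (f := fun x => v i - F x) (by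
        intro x hx
        rw [Set.uIoc_of_le (hle i)] at hx
        rw [Real.norm_eq_abs]
        exact hv i x ⟨hx.1.le, hx.2⟩)
    rw [Real.norm_eq_abs, abs_of_nonneg (sub_nonneg.2 (hle i))] at h2
    exact h2
  calc |∑ i : Fin N, (v i * (t i.succ - t i.castSucc) - ∫ x in (t i.castSucc)..(t i.succ), F x)|
      ≤ ∑ i : Fin N, |v i * (t i.succ - t i.castSucc) - ∫ x in (t i.castSucc)..(t i.succ), F x| :=
        Finset.abs_sum_le_sum_abs _ _
    _ ≤ ∑ i : Fin N, ε * (t i.succ - t i.castSucc) := Finset.sum_le_sum (fun i _ => hterm i)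
    _ = ε * (t (Fin.last N) - t 0) := by rw [← Finset.mul_sum, sum_fin_sub_adjacent]

end Crest.Agent.Helper36
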