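import Mathlib
import Crest.Agent.Helper36.Sweep.Gram
import Crest.Agent.Helper36.Sweep.Riemann
import Crest.Agent.Helper36.Sweep.Piece

/-!
# The radial sweep lemma (S0328): assembly
-/

set_option autoImplicit false

open MeasureTheory

namespace Crest.Agent.Helper36

/-- Every point of `[t 0, t last]` lies in a piece of the partition. -/
theorem exists_piece_index {N : ℕ} (t : Fin (N + 1) → ℝ) (ht : StrictMono t) {τ : ℝ}
    (h0 : t 0 ≤ τ) (h1 : τ ≤ t (Fin.last N)) (hlt : t 0 < t (Fin.last N)) :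
    ∃ i : Fin N, τ ∈ Set.Icc (t i.castSucc) (t i.succ) := by
  classical
  have hN : N ≠ 0 := by
    rintro rfl
    exact lt_irrefl _ hlt
  set s : Finset (Fin (N + 1)) := Finset.univ.filter (fun i => τ ≤ t i) with hs
  have hne : s.Nonempty := ⟨Fin.last N, by simp [hs, h1]⟩
  have hmem : s.min' hne ∈ s := Finset.min'_mem s hne
  have hmin : τ ≤ t (s.min' hne) := by
    have := hmem
    simp only [hs, Finset.mem_filter, Finset.mem_univ, true_and] at this
    exact this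
  by_cases hz : s.min' hne = 0
  · refine ⟨⟨0, Nat.pos_of_ne_zero hN⟩, ?_, ?_⟩
    · have : (⟨0, Nat.pos_of_ne_zero hN⟩ : Fin N).castSucc = 0 := rfl
      rw [this]; exact h0
    · rw [hz] at hmin
      exact le_trans hmin (ht.monotone (Fin.zero_le _))
  · obtain ⟨j, hj⟩ := Fin.exists_succ_eq.2 hz
    refine ⟨j, ?_, ?_⟩
    · by_contra hcon
      have hjs : j.castSucc ∈ s := by
        simp only [hs, Finset.mem_filter, Finset.mem_univ, true_and]
        exact le_of_lt (not_le.1 hcon) |> fun h => by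
          exact le_of_not_ge (fun h' => hcon h') |> fun _ => (not_le.1 hcon).le
      have h2 := Finset.min'_le s _ hjs
      rw [← hj] at h2
      exact absurd h2 (not_le.2 (Fin.castSucc_lt_succ))
    · rw [hj]; exact hmin

theorem val_close {k r g g' M ε : ℝ} (hk0 : 0 ≤ k) (hr0 : 0 ≤ r) (hrM : r ≤ M) (hε0 : 0 ≤ ε)
    (hε1 : ε ≤ 1) (hkr : |k - r| ≤ 4 * ε) (hg0 : 0 ≤ g) (hg : g ≤ 1 / 2) (hgg : |g - g'| ≤ ε) :
    |k ^ 2 * g - r ^ 2 * g'| ≤ ε * (M ^ 2 + 4 * M + 8) := by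
  have hM0 : 0 ≤ M := le_trans hr0 hrM
  have e : k ^ 2 * g - r ^ 2 * g' = (k - r) * (k + r) * g + r ^ 2 * (g - g') := by ring
  have hkr2 : k + r ≤ 2 * M + 4 := by
    have := (abs_le.1 hkr).2
    linarith
  have h1 : |(k - r) * (k + r) * g| ≤ 4 * ε * (2 * M + 4) * (1 / 2) := by
    rw [abs_mul, abs_mul, abs_of_nonneg (add_nonneg hk0 hr0), abs_of_nonneg hg0]
    exact mul_le_mul (mul_le_mul hkr hkr2 (add_nonneg hk0 hr0) (by positivity)) hg hg0
      (by positivity)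
  have h2 : |r ^ 2 * (g - g')| ≤ M ^ 2 * ε := by
    rw [abs_mul, abs_of_nonneg (sq_nonneg r)]
    exact mul_le_mul (pow_le_pow_left₀ hr0 hrM 2) hgg (abs_nonneg _) (sq_nonneg M)
  rw [e]
  calc |(k - r) * (k + r) * g + r ^ 2 * (g - g')|
      ≤ |(k - r) * (k + r) * g| + |r ^ 2 * (g - g')| := abs_add_le _ _
    _ ≤ 4 * ε * (2 * M + 4) * (1 / 2) + M ^ 2 * ε := add_le_add h1 h2
    _ = ε * (M ^ 2 + 4 * M + 8) := by ring

theorem exists_unif_delta {α β : ℝ} {f : ℝ → ℝ} (hf : ContinuousOn f (Set.Icc α β)) {ε : ℝ}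
    (hε : 0 < ε) :
    ∃ δ > 0, ∀ x ∈ Set.Icc α β, ∀ y ∈ Set.Icc α β, |x - y| ≤ δ → |f x - f y| ≤ ε := by
  obtain ⟨δ, hδ, h⟩ := Metric.uniformContinuousOn_iff_le.1
    (isCompact_Icc.uniformContinuousOn_of_continuous hf) ε hε
  refine ⟨δ, hδ, fun x hx y hy hxy => ?_⟩
  have := h x hx y hy (by rw [Real.dist_eq]; exact hxy)
  rwa [Real.dist_eq] at this

section Package

variable (hArea : ∀ p q r : E3, μHE[2] (convexHull ℝ ({p, q, r} : Set E3)) =
      ENNReal.ofReal (Real.sqrt (gram2 (q - p) (r - p)) / 2))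
include hArea

/-- The covering triangle of one piece, with all its properties. -/
theorem piece_package (e a b p₀ : E3) (he : ‖e‖ = 1) (ha : inner ℝ a e = 0)
    (hb : inner ℝ b e = 0) (hab : LinearIndependent ℝ ![a, b]) (L : ℝ) (hL : 0 < L) (α β : ℝ)
    (R : ℝ → ℝ) (w : ℝ → E3) (hw : ∀ t ∈ Set.Icc α β, inner ℝ (w t) e = 0)
    (lam : ℝ → ℝ) (hlam : ContinuousOn lam (Set.Icc α β))
    (hw' : ∀ t ∈ Set.Icc α β, HasDerivWithinAt w (lam t • (a + t • b)) (Set.Icc α β) t)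
    {Λ : ℝ} (hΛ : ∀ θ ∈ Set.Icc α β, |lam θ| ≤ Λ) {t₁ t₂ c : ℝ} (ht : t₁ < t₂) (h1 : α ≤ t₁)
    (h2 : t₂ ≤ β) (hc : c ∈ Set.Icc t₁ t₂) {Rmax ν : ℝ} (hν : 0 < ν)
    (hRmax : ∀ τ ∈ Set.Icc t₁ t₂, R τ ≤ Rmax) (hRmax0 : 0 ≤ Rmax) :
    ∃ p q r : E3,
      (inner ℝ p (e + w c) = 0 ∧ inner ℝ q (e + w c) = 0 ∧ inner ℝ r (e + w c) = 0) ∧
      AffineIndependent ℝ ![p, q, r] ∧
      (∀ x ∈ sweepPiece e a b p₀ L R w t₁ t₂,
        ∃ y ∈ convexHull ℝ ({p, q, r} : Set E3), ∃ σ : ℝ, x = y + σ • (e + w c)) ∧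
      projAlong (e + w c) '' sweepPiece e a b p₀ L R w t₁ t₂ ⊆
        convexHull ℝ ({p, q, r} : Set E3) ∧
      μHE[2] (convexHull ℝ ({p, q, r} : Set E3)) =
        ENNReal.ofReal ((Rmax + 4 * (L * Λ * (t₂ - t₁)) + ν) ^ 2
          * (1 / (2 * Real.sqrt (1 + ‖w c‖ ^ 2))) * Real.sqrt (gram2 a b) * (t₂ - t₁)) := by
  have hsub12 : Set.Icc t₁ t₂ ⊆ Set.Icc α β := Set.Icc_subset_Icc h1 h2
  have hc' := hsub12 hc
  have hwc : inner ℝ (w c) e = 0 := hw c hc'
  have hΛ0 : 0 ≤ Λ := le_trans (abs_nonneg _) (hΛ c hc')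
  have hΔ : 0 < t₂ - t₁ := sub_pos.2 ht
  have hd : ‖e + w c‖ ^ 2 = 1 + ‖w c‖ ^ 2 := norm_sq_e_add e (w c) he hwc
  have hd0 : ‖e + w c‖ ^ 2 ≠ 0 := by rw [hd]; positivity
  set d := e + w c with hddef
  set m := L * Λ * (t₂ - t₁) with hm
  have hm0 : 0 ≤ m := by positivity
  set K := Rmax + 4 * m + ν with hK
  have hKpos : 0 < K := by linarith
  set P := p₀ - m • ((a + t₁ • b) + (a + t₂ • b)) with hP
  have hκ : 0 < Real.sqrt (gram2 a b) :=
    Real.sqrt_pos.2 (gram2_pos_of_linearIndependent a b hab)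
  have hsq := sqrt_gram2_proj_fan e a b (w c) P he ha hb hwc t₁ t₂ K ht.le
  rw [← hddef] at hsq
  have himg : projAlong d '' convexHull ℝ ({P, P + K • (a + t₁ • b), P + K • (a + t₂ • b)} : Set E3)
      = convexHull ℝ ({projAlong d P, projAlong d (P + K • (a + t₁ • b)),
          projAlong d (P + K • (a + t₂ • b))} : Set E3) := by
    have := (projAlongL d).image_convexHull
      ({P, P + K • (a + t₁ • b), P + K • (a + t₂ • b)} : Set E3)
    simp only [Set.image_insert_eq, Set.image_singleton, projAlongL_apply] at this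
    exact this
  refine ⟨projAlong d P, projAlong d (P + K • (a + t₁ • b)), projAlong d (P + K • (a + t₂ • b)),
    ⟨inner_projAlong_self d _ hd0, inner_projAlong_self d _ hd0, inner_projAlong_self d _ hd0⟩,
    ?_, ?_, ?_, ?_⟩
  · apply affineIndependent_of_gram2_pos
    have hpos : 0 < K ^ 2 * (1 / (2 * Real.sqrt (1 + ‖w c‖ ^ 2))) * Real.sqrt (gram2 a b)
        * (t₂ - t₁) := by
      have : 0 < Real.sqrt (1 + ‖w c‖ ^ 2) := Real.sqrt_pos.2 (by positivity)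
      positivity
    rw [← hsq] at hpos
    have : 0 < Real.sqrt (gram2 (projAlong d (P + K • (a + t₁ • b)) - projAlong d P)
        (projAlong d (P + K • (a + t₂ • b)) - projAlong d P)) := by linarith
    exact Real.sqrt_pos.1 this
  · intro x hx
    obtain ⟨y, hy, s, rfl⟩ := piece_decomp e a b p₀ α β w lam hlam hw' ht h1 h2 hL.le hΛ R hν
      hRmax hc hx
    refine ⟨projAlong d y, ?_, s + inner ℝ y d / ‖d‖ ^ 2, ?_⟩
    · rw [← himg]
      exact Set.mem_image_of_mem _ hy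
    · unfold projAlong
      rw [add_smul]
      abel
  · rintro _ ⟨x, hx, rfl⟩
    obtain ⟨y, hy, s, rfl⟩ := piece_decomp e a b p₀ α β w lam hlam hw' ht h1 h2 hL.le hΛ R hν
      hRmax hc hx
    have e1 : projAlong d (y + s • d) = projAlong d y := by
      rw [projAlong_add, projAlong_self_smul d hd0, add_zero]
    show projAlong d (y + s • d) ∈ _
    rw [e1, ← himg]
    exact Set.mem_image_of_mem _ hy
  · rw [hArea, hsq]

/-- Lower bound for the projected piece by an inscribed flat triangle. -/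
theorem inner_package (e a b p₀ : E3) (he : ‖e‖ = 1) (ha : inner ℝ a e = 0)
    (hb : inner ℝ b e = 0) (L : ℝ) (hL : 0 < L) (R : ℝ → ℝ) (w : ℝ → E3) {t₁ t₂ c : ℝ}
    (hwc : inner ℝ (w c) e = 0) (ht : t₁ < t₂) {r₀ : ℝ} (hr : 0 ≤ r₀)
    (hrR : ∀ τ ∈ Set.Icc t₁ t₂, r₀ ≤ R τ) :
    ENNReal.ofReal (r₀ ^ 2 * (1 / (2 * Real.sqrt (1 + ‖w c‖ ^ 2))) * Real.sqrt (gram2 a b)
        * (t₂ - t₁)) ≤
      μHE[2] (projAlong (e + w c) '' sweepPiece e a b p₀ L R w t₁ t₂) := by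
  set d := e + w c with hddef
  have hsq := sqrt_gram2_proj_fan e a b (w c) p₀ he ha hb hwc t₁ t₂ r₀ ht.le
  rw [← hddef] at hsq
  have himg : projAlong d '' convexHull ℝ ({p₀, p₀ + r₀ • (a + t₁ • b), p₀ + r₀ • (a + t₂ • b)} : Set E3)
      = convexHull ℝ ({projAlong d p₀, projAlong d (p₀ + r₀ • (a + t₁ • b)),
          projAlong d (p₀ + r₀ • (a + t₂ • b))} : Set E3) := by
    have := (projAlongL d).image_convexHull
      ({p₀, p₀ + r₀ • (a + t₁ • b), p₀ + r₀ • (a + t₂ • b)} : Set E3)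
    simp only [Set.image_insert_eq, Set.image_singleton, projAlongL_apply] at this
    exact this
  have hsubset := inner_triangle_subset e a b p₀ w R ht hr hL.le hrR
  calc ENNReal.ofReal (r₀ ^ 2 * (1 / (2 * Real.sqrt (1 + ‖w c‖ ^ 2))) * Real.sqrt (gram2 a b)
        * (t₂ - t₁))
      = μHE[2] (convexHull ℝ ({projAlong d p₀, projAlong d (p₀ + r₀ • (a + t₁ • b)),
          projAlong d (p₀ + r₀ • (a + t₂ • b))} : Set E3)) := by rw [hArea, hsq]
    _ = μHE[2] (projAlong d '' convexHull ℝ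
          ({p₀, p₀ + r₀ • (a + t₁ • b), p₀ + r₀ • (a + t₂ • b)} : Set E3)) := by rw [himg]
    _ ≤ μHE[2] (projAlong d '' sweepPiece e a b p₀ L R w t₁ t₂) :=
        measure_mono (Set.image_mono hsubset)

/-- The radial sweep lemma, stated with the abbreviations of this library. -/
theorem sweep_main (e a b p₀ : E3) (he : ‖e‖ = 1)
    (ha : inner ℝ a e = 0) (hb : inner ℝ b e = 0)
    (hab : LinearIndependent ℝ ![a, b]) (L : ℝ) (hL : 0 < L) (α β : ℝ) (hαβ : α < β)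
    (R : ℝ → ℝ) (hR : ContinuousOn R (Set.Icc α β)) (hR0 : ∀ t ∈ Set.Icc α β, 0 ≤ R t)
    (w : ℝ → E3) (hw : ∀ t ∈ Set.Icc α β, inner ℝ (w t) e = 0)
    (lam : ℝ → ℝ) (hlam : ContinuousOn lam (Set.Icc α β))
    (hw' : ∀ t ∈ Set.Icc α β, HasDerivWithinAt w (lam t • (a + t • b)) (Set.Icc α β) t)
    (η : ℝ) (hη : 0 < η) :
    ∃ δ : ℝ, 0 < δ ∧ ∀ (N : ℕ) (t : Fin (N + 1) → ℝ) (c : Fin N → ℝ),
      StrictMono t → t 0 = α → t (Fin.last N) = β →
      (∀ i : Fin N, t i.succ - t i.castSucc ≤ δ) →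
      (∀ i : Fin N, t i.castSucc ≤ c i ∧ c i ≤ t i.succ) →
      (∃ (p q r : Fin N → E3),
        (∀ i, inner ℝ (p i) (e + w (c i)) = 0 ∧ inner ℝ (q i) (e + w (c i)) = 0 ∧
          inner ℝ (r i) (e + w (c i)) = 0) ∧
        (∀ i, AffineIndependent ℝ ![p i, q i, r i]) ∧
        sweepPiece e a b p₀ L R w α β ⊆
          ⋃ i, {x : E3 | ∃ y ∈ convexHull ℝ ({p i, q i, r i} : Set E3), ∃ σ : ℝ,
            x = y + σ • (e + w (c i))} ∧
        |(∑ i, (μHE[2] (convexHull ℝ ({p i, q i, r i} : Set E3))).toReal) -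
            Real.sqrt (gram2 a b) *
              ∫ τ in α..β, R τ ^ 2 / (2 * Real.sqrt (1 + ‖w τ‖ ^ 2))| ≤ η) ∧
      |(∑ i : Fin N, (μHE[2] (projAlong (e + w (c i)) ''
            sweepPiece e a b p₀ L R w (t i.castSucc) (t i.succ))).toReal) -
          Real.sqrt (gram2 a b) *
            ∫ τ in α..β, R τ ^ 2 / (2 * Real.sqrt (1 + ‖w τ‖ ^ 2))| ≤ η := by
  classical
  have hκ : 0 < Real.sqrt (gram2 a b) :=
    Real.sqrt_pos.2 (gram2_pos_of_linearIndependent a b hab)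
  set κ := Real.sqrt (gram2 a b) with hκdef
  obtain ⟨Λ, hΛ⟩ : ∃ Λ, ∀ θ ∈ Set.Icc α β, |lam θ| ≤ Λ := by
    obtain ⟨C, hC⟩ := isCompact_Icc.exists_bound_of_continuousOn hlam
    exact ⟨C, fun θ hθ => by simpa using hC θ hθ⟩
  obtain ⟨M, hM⟩ : ∃ M, ∀ θ ∈ Set.Icc α β, R θ ≤ M := by
    obtain ⟨C, hC⟩ := isCompact_Icc.exists_bound_of_continuousOn hR
    exact ⟨C, fun θ hθ => le_trans (le_abs_self _) (by simpa using hC θ hθ)⟩
  have hα : α ∈ Set.Icc α β := ⟨le_rfl, hαβ.le⟩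
  have hΛ0 : 0 ≤ Λ := le_trans (abs_nonneg _) (hΛ α hα)
  have hM0 : 0 ≤ M := le_trans (hR0 α hα) (hM α hα)
  -- the weight function
  set G : ℝ → ℝ := fun τ => 1 / (2 * Real.sqrt (1 + ‖w τ‖ ^ 2)) with hGdef
  have hsqrt1 : ∀ τ, 1 ≤ Real.sqrt (1 + ‖w τ‖ ^ 2) := fun τ => by
    rw [Real.one_le_sqrt]
    nlinarith [sq_nonneg ‖w τ‖]
  have hwcont : ContinuousOn w (Set.Icc α β) := fun x hx => (hw' x hx).continuousWithinAt
  have hGc : ContinuousOn G (Set.Icc α β) := by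
    apply ContinuousOn.div continuousOn_const
    · exact continuousOn_const.mul
        (Real.continuous_sqrt.comp_continuousOn (continuousOn_const.add (hwcont.norm.pow 2)))
    · intro x _
      have := hsqrt1 x
      positivity
  have hG0 : ∀ τ, 0 ≤ G τ := fun τ => by
    have := hsqrt1 τ
    simp only [hGdef]
    positivity
  have hG1 : ∀ τ, G τ ≤ 1 / 2 := fun τ => by
    have := hsqrt1 τ
    simp only [hGdef]
    apply one_div_le_one_div_of_le (by norm_num)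
    linarith
  set F : ℝ → ℝ := fun τ => R τ ^ 2 / (2 * Real.sqrt (1 + ‖w τ‖ ^ 2)) with hFdef
  have hFG : ∀ τ, F τ = R τ ^ 2 * G τ := fun τ => by
    simp only [hFdef, hGdef]
    rw [mul_one_div]
  have hFc : ContinuousOn F (Set.Icc α β) := by
    have : F = fun τ => R τ ^ 2 * G τ := funext hFG
    rw [this]
    exact (hR.pow 2).mul hGc
  -- constants
  set C₀ := M ^ 2 + 4 * M + 8 with hC₀
  have hC₀pos : 0 < C₀ := by positivity
  set ε₂ := η / (κ * (β - α)) with hε₂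
  have hβα : 0 < β - α := sub_pos.2 hαβ
  have hε₂pos : 0 < ε₂ := div_pos hη (mul_pos hκ hβα)
  set ε₁ := min 1 (ε₂ / C₀) with hε₁
  have hε₁pos : 0 < ε₁ := lt_min one_pos (div_pos hε₂pos hC₀pos)
  have hε₁le : ε₁ ≤ 1 := min_le_left _ _
  have hε₁C : ε₁ * C₀ ≤ ε₂ := by
    have h : ε₁ ≤ ε₂ / C₀ := min_le_right _ _
    calc ε₁ * C₀ ≤ ε₂ / C₀ * C₀ := mul_le_mul_of_nonneg_right h hC₀pos.le
      _ = ε₂ := div_mul_cancel₀ _ hC₀pos.ne'
  obtain ⟨δR, hδR, hRu⟩ := exists_unif_delta hR hε₁pos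
  obtain ⟨δG, hδG, hGu⟩ := exists_unif_delta hGc hε₁pos
  have hLΛ : 0 < 4 * L * Λ + 1 := by positivity
  refine ⟨min (min δR δG) (ε₁ / (4 * L * Λ + 1)), lt_min (lt_min hδR hδG) (div_pos hε₁pos hLΛ), ?_⟩
  intro N t c hmono h0 hlast hmesh htag
  have hmonot : Monotone t := hmono.monotone
  have htmem : ∀ i : Fin (N + 1), t i ∈ Set.Icc α β := fun i =>
    ⟨h0 ▸ hmonot (Fin.zero_le i), hlast ▸ hmonot (Fin.le_last i)⟩
  have hlt : ∀ i : Fin N, t i.castSucc < t i.succ := fun i => hmono Fin.castSucc_lt_succ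
  have hcmem : ∀ i : Fin N, c i ∈ Set.Icc (t i.castSucc) (t i.succ) := fun i =>
    ⟨(htag i).1, (htag i).2⟩
  have hsub : ∀ i : Fin N, Set.Icc (t i.castSucc) (t i.succ) ⊆ Set.Icc α β := fun i =>
    Set.Icc_subset_Icc (htmem _).1 (htmem _).2
  have hΔε : ∀ i : Fin N, 4 * (L * Λ * (t i.succ - t i.castSucc)) ≤ ε₁ := by
    intro i
    have h1 : t i.succ - t i.castSucc ≤ ε₁ / (4 * L * Λ + 1) :=
      le_trans (hmesh i) (min_le_right _ _)
    have h2 : 0 ≤ 4 * L * Λ := by positivity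
    have h3 : 0 ≤ ε₁ / (4 * L * Λ + 1) := (div_pos hε₁pos hLΛ).le
    calc 4 * (L * Λ * (t i.succ - t i.castSucc)) = (4 * L * Λ) * (t i.succ - t i.castSucc) := by
          ring
      _ ≤ (4 * L * Λ) * (ε₁ / (4 * L * Λ + 1)) := mul_le_mul_of_nonneg_left h1 h2
      _ ≤ (4 * L * Λ + 1) * (ε₁ / (4 * L * Λ + 1)) :=
          mul_le_mul_of_nonneg_right (by linarith) h3
      _ = ε₁ := mul_div_cancel₀ _ hLΛ.ne'
  have hclose : ∀ i : Fin N, ∀ τ ∈ Set.Icc (t i.castSucc) (t i.succ),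
      |R τ - R (c i)| ≤ ε₁ ∧ |G τ - G (c i)| ≤ ε₁ := by
    intro i τ hτ
    have hd : |τ - c i| ≤ min δR δG := by
      have h1 : |τ - c i| ≤ t i.succ - t i.castSucc := by
        rw [abs_le]
        constructor <;> linarith [hτ.1, hτ.2, (hcmem i).1, (hcmem i).2]
      exact le_trans h1 (le_trans (hmesh i) (min_le_left _ _))
    exact ⟨hRu τ (hsub i hτ) (c i) (hsub i (hcmem i)) (le_trans hd (min_le_left _ _)),
      hGu τ (hsub i hτ) (c i) (hsub i (hcmem i)) (le_trans hd (min_le_right _ _))⟩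
  -- the covering triangles
  have hpack := fun i : Fin N => piece_package hArea e a b p₀ he ha hb hab L hL α β R w hw lam
    hlam hw' hΛ (hlt i) (htmem _).1 (htmem _).2 (hcmem i) (Rmax := R (c i) + ε₁) (ν := ε₁) hε₁pos
    (fun τ hτ => by
      have := (abs_le.1 (hclose i τ hτ).1).2
      linarith)
    (by
      have := hR0 (c i) (hsub i (hcmem i))
      linarith)
  choose p q r hp using hpack
  set K : Fin N → ℝ := fun i => R (c i) + ε₁ + 4 * (L * Λ * (t i.succ - t i.castSucc)) + ε₁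
    with hKdef
  have hK0 : ∀ i, 0 ≤ K i := fun i => by
    have h1 := hR0 (c i) (hsub i (hcmem i))
    have h2 : 0 ≤ L * Λ * (t i.succ - t i.castSucc) :=
      mul_nonneg (mul_nonneg hL.le hΛ0) (sub_nonneg.2 (hlt i).le)
    simp only [hKdef]
    linarith
  have hTval : ∀ i, 0 ≤ K i ^ 2 * G (c i) * κ * (t i.succ - t i.castSucc) := fun i =>
    mul_nonneg (mul_nonneg (mul_nonneg (sq_nonneg _) (hG0 _)) hκ.le) (sub_nonneg.2 (hlt i).le)
  have hareaT : ∀ i, μHE[2] (convexHull ℝ ({p i, q i, r i} : Set E3)) =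
      ENNReal.ofReal (K i ^ 2 * G (c i) * κ * (t i.succ - t i.castSucc)) := fun i =>
    (hp i).2.2.2.2
  have hareaT' : ∀ i, (μHE[2] (convexHull ℝ ({p i, q i, r i} : Set E3))).toReal =
      K i ^ 2 * G (c i) * κ * (t i.succ - t i.castSucc) := fun i => by
    rw [hareaT i, ENNReal.toReal_ofReal (hTval i)]
  -- Riemann sums
  have hRiem : ∀ v : Fin N → ℝ,
      (∀ i, ∀ τ ∈ Set.Icc (t i.castSucc) (t i.succ), |v i - F τ| ≤ ε₂) →
      |∑ i, v i * κ * (t i.succ - t i.castSucc) - κ * ∫ τ in α..β, F τ| ≤ η := by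
    intro v hv
    have h := riemann_sum_close t hmonot F (by rw [h0, hlast]; exact hFc) v ε₂ hv
    rw [h0, hlast] at h
    have e1 : ∑ i, v i * κ * (t i.succ - t i.castSucc)
        = κ * ∑ i, v i * (t i.succ - t i.castSucc) := by
      rw [Finset.mul_sum]
      apply Finset.sum_congr rfl
      intro i _
      ring
    rw [e1, ← mul_sub, abs_mul, abs_of_pos hκ]
    calc κ * |∑ i, v i * (t i.succ - t i.castSucc) - ∫ τ in α..β, F τ|
        ≤ κ * (ε₂ * (β - α)) := mul_le_mul_of_nonneg_left h hκ.le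
      _ = η := by
          rw [hε₂]
          field_simp
  -- upper sums
  have hupper : |∑ i, K i ^ 2 * G (c i) * κ * (t i.succ - t i.castSucc)
      - κ * ∫ τ in α..β, F τ| ≤ η := by
    apply hRiem (fun i => K i ^ 2 * G (c i))
    intro i τ hτ
    have hcl := hclose i τ hτ
    have hτ' := hsub i hτ
    rw [hFG τ]
    refine le_trans (val_close (hK0 i) (hR0 τ hτ') (hM τ hτ') hε₁pos.le hε₁le ?_ (hG0 _) (hG1 _)
      ?_) hε₁C
    · have h1 := abs_le.1 hcl.1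
      have h2 := hΔε i
      have h3 : 0 ≤ L * Λ * (t i.succ - t i.castSucc) :=
        mul_nonneg (mul_nonneg hL.le hΛ0) (sub_nonneg.2 (hlt i).le)
      simp only [hKdef]
      rw [abs_le]
      constructor <;> linarith [h1.1, h1.2]
    · rw [abs_sub_comm]
      exact hcl.2
  -- lower sums
  set ρ : Fin N → ℝ := fun i => max (R (c i) - ε₁) 0 with hρdef
  have hρ0 : ∀ i, 0 ≤ ρ i := fun i => le_max_right _ _
  have hρR : ∀ i, ∀ τ ∈ Set.Icc (t i.castSucc) (t i.succ), ρ i ≤ R τ := by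
    intro i τ hτ
    have h1 := abs_le.1 (hclose i τ hτ).1
    exact max_le (by linarith [h1.1]) (hR0 τ (hsub i hτ))
  have hlower : |∑ i, ρ i ^ 2 * G (c i) * κ * (t i.succ - t i.castSucc)
      - κ * ∫ τ in α..β, F τ| ≤ η := by
    apply hRiem (fun i => ρ i ^ 2 * G (c i))
    intro i τ hτ
    have hcl := hclose i τ hτ
    have hτ' := hsub i hτ
    rw [hFG τ]
    refine le_trans (val_close (hρ0 i) (hR0 τ hτ') (hM τ hτ') hε₁pos.le hε₁le ?_ (hG0 _) (hG1 _)
      ?_) hε₁C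
    · have h1 := abs_le.1 hcl.1
      have h2 := hρR i τ hτ
      have h3 : R (c i) - ε₁ ≤ ρ i := le_max_left _ _
      rw [abs_le]
      constructor <;> linarith [h1.1, h1.2]
    · rw [abs_sub_comm]
      exact hcl.2
  -- the projected pieces
  have hprojle : ∀ i, μHE[2] (projAlong (e + w (c i)) ''
      sweepPiece e a b p₀ L R w (t i.castSucc) (t i.succ)) ≤
      ENNReal.ofReal (K i ^ 2 * G (c i) * κ * (t i.succ - t i.castSucc)) := fun i => by
    rw [← hareaT i]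
    exact measure_mono (hp i).2.2.2.1
  have hprojne : ∀ i, μHE[2] (projAlong (e + w (c i)) ''
      sweepPiece e a b p₀ L R w (t i.castSucc) (t i.succ)) ≠ ⊤ := fun i =>
    ne_top_of_le_ne_top ENNReal.ofReal_ne_top (hprojle i)
  have hproj_up : ∀ i, (μHE[2] (projAlong (e + w (c i)) ''
      sweepPiece e a b p₀ L R w (t i.castSucc) (t i.succ))).toReal ≤
      K i ^ 2 * G (c i) * κ * (t i.succ - t i.castSucc) := fun i =>
    ENNReal.toReal_le_of_le_ofReal (hTval i) (hprojle i)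
  have hproj_lo : ∀ i, ρ i ^ 2 * G (c i) * κ * (t i.succ - t i.castSucc) ≤
      (μHE[2] (projAlong (e + w (c i)) ''
        sweepPiece e a b p₀ L R w (t i.castSucc) (t i.succ))).toReal := fun i => by
    have h := inner_package hArea e a b p₀ he ha hb L hL R w (hw (c i) (hsub i (hcmem i)))
      (hlt i) (hρ0 i) (hρR i)
    exact (ENNReal.ofReal_le_iff_le_toReal (hprojne i)).1 h
  refine ⟨⟨p, q, r, fun i => (hp i).1, fun i => (hp i).2.1, ?_, ?_⟩, ?_⟩
  · intro x hx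
    obtain ⟨τ, hτ, ρ', hρ', s, hs, rfl⟩ := hx
    obtain ⟨i, hi⟩ := exists_piece_index t hmono (h0 ▸ hτ.1) (hlast ▸ hτ.2)
      (by rw [h0, hlast]; exact hαβ)
    rw [Set.mem_iUnion]
    exact ⟨i, (hp i).2.2.1 _ ⟨τ, hi, ρ', hρ', s, hs, rfl⟩⟩
  · rw [Finset.sum_congr rfl (fun i _ => hareaT' i)]
    exact hupper
  · rw [abs_le]
    have hu := abs_le.1 hupper
    have hl := abs_le.1 hlower
    have h1 := Finset.sum_le_sum (fun i (_ : i ∈ Finset.univ) => hproj_up i)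
    have h2 := Finset.sum_le_sum (fun i (_ : i ∈ Finset.univ) => hproj_lo i)
    constructor
    · linarith [hl.1]
    · linarith [hu.2]

end Package

end Crest.Agent.Helper36
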